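import Vale.Agent.P079.Step

/-! The double limit contradiction and the fixed point theorem. -/

open Filter Topology Set

namespace Vale.Agent.P079

variable {X : Type*} [NormedAddCommGroup X] [NormedSpace ℝ X]

/-- `e` is dominated at `ζ` with radius `r` -/
def Dom (K : Set X) (ζ : X) (r : ℝ) (e : X) : Prop := ∀ t : ℝ, |t| ≤ r → ζ + t • e ∈ K

/-- state of the recursion -/
structure St (c : Ctx X) where
  N : Node c
  g : StrongDual ℝ X
  ζ : X
  r : ℝ
  hζ : ζ ∈ c.K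
  hr : 0 < r
  own : Dom c.K ζ r N.v

theorem Node.dom {c : Ctx X} (N : Node c) :
    Dom c.K ((1 / 2 : ℝ) • N.a + (1 / 2 : ℝ) • N.b) (N.H * c.d / 2) N.v := by
  intro t ht
  have hp := mul_pos N.Hpos c.dpos
  have h1 := abs_le.1 ht
  have e : (1 / 2 : ℝ) • N.a + (1 / 2 : ℝ) • N.b + t • N.v =
      (1 / 2 + t / (N.H * c.d)) • N.a + (1 / 2 - t / (N.H * c.d)) • N.b := by
    rw [Node.v, smul_smul, ← div_eq_mul_inv]
    module
  have h2 : t / (N.H * c.d) ≤ 1 / 2 := by rw [div_le_iff₀ hp]; linarith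
  have h3 : -(1 / 2) ≤ t / (N.H * c.d) := by rw [le_div_iff₀ hp]; linarith
  rw [e]
  exact c.cv N.a_mem N.b_mem (by linarith) (by linarith) (by ring)

theorem Dom.avg {K : Set X} (hK : Convex ℝ K) {ζ ξ e : X} {r r' : ℝ} (h : Dom K ζ r e)
    (hξ : ξ ∈ K) (hr : 2 * r' ≤ r) : Dom K ((1 / 2 : ℝ) • ζ + (1 / 2 : ℝ) • ξ) r' e := by
  intro t ht
  have e1 : (1 / 2 : ℝ) • ζ + (1 / 2 : ℝ) • ξ + t • e =
      (1 / 2 : ℝ) • (ζ + (2 * t) • e) + (1 / 2 : ℝ) • ξ := by module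
  rw [e1]
  exact hK (h _ (by rw [abs_mul, abs_two]; linarith)) hξ (by norm_num) (by norm_num) (by norm_num)

theorem St.next {c : Ctx X} (s : St c) {δ : ℝ} (hδ : 0 < δ) :
    ∃ (s' : St c) (φ : StrongDual ℝ X), ‖φ‖ ≤ 1 ∧ 1 - δ ≤ φ s'.N.v ∧
      s.g s.N.v - δ ≤ s.g s'.N.v ∧ s'.g = s.g + φ ∧
      ∀ e, Dom c.K s.ζ s.r e → φ e ≤ 1 / 8 ∧ Dom c.K s'.ζ s'.r e := by
  have hr := s.hr
  obtain ⟨N', φ, h1, h2, h3, h4⟩ := step s.N s.g s.hζ hδ (η := s.r / 8) (by positivity)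
  have hmid : (1 / 2 : ℝ) • N'.a + (1 / 2 : ℝ) • N'.b ∈ c.K :=
    c.cv N'.a_mem N'.b_mem (by norm_num) (by norm_num) (by norm_num)
  have hp := mul_pos N'.Hpos c.dpos
  refine ⟨⟨N', s.g + φ, (1 / 2 : ℝ) • s.ζ + (1 / 2 : ℝ) • ((1 / 2 : ℝ) • N'.a + (1 / 2 : ℝ) • N'.b),
    min s.r (N'.H * c.d / 2) / 2,
    c.cv s.hζ hmid (by norm_num) (by norm_num) (by norm_num), by positivity, ?_⟩,
    φ, h1, h2, h4, rfl, fun e he => ⟨?_, he.avg c.cv hmid ?_⟩⟩
  · rw [add_comm]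
    exact N'.dom.avg c.cv s.hζ (by linarith [min_le_right s.r (N'.H * c.d / 2)])
  · have := h3 _ (he (-s.r) (by rw [abs_neg, abs_of_pos hr]))
    simp only [sub_add_cancel_left, neg_smul, neg_neg, map_smul, smul_eq_mul] at this
    nlinarith
  · change 2 * (min s.r (N'.H * c.d / 2) / 2) ≤ s.r
    linarith [min_le_left s.r (N'.H * c.d / 2)]

theorem ctx_false (c : Ctx X) : False := by
  obtain ⟨b, hb⟩ := exists_WL c.hX UU c.q c.M fun l => c.bd _ (c.q_mem l)
  let N0 : Node c :=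
    { Φ := fun _ w => w, H := 1, C := 0, m := 0, z := c.z0, a := c.J 0 c.z0, b := b
      Hpos := one_pos, zmem := c.z0mem, maps := fun _ _ h => h
      lip := fun _ _ _ _ _ => by simp, tight := fun _ _ _ => by simp
      ha := WL.const _ _, hb := hb }
  let s0 : St c := ⟨N0, 0, _, _,
    c.cv N0.a_mem N0.b_mem (by norm_num) (by norm_num) (by norm_num),
    half_pos (mul_pos N0.Hpos c.dpos), N0.dom⟩
  choose nx ph h1 h2 h3 h4 h5 using fun (n : ℕ) (s : St c) =>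
    s.next (δ := (1 / 2) ^ n / 8) (by positivity)
  let s : ℕ → St c := fun n => Nat.rec s0 nx n
  let φ : ℕ → StrongDual ℝ X := fun n => ph n (s n)
  let v : ℕ → X := fun n => (s n).N.v
  have hs : ∀ n, s (n + 1) = nx n (s n) := fun _ => rfl
  have hle : ∀ n x, φ n x ≤ ‖x‖ := fun n x =>
    calc φ n x ≤ ‖φ n‖ * ‖x‖ := (le_abs_self _).trans ((φ n).le_opNorm _)
      _ ≤ 1 * ‖x‖ := mul_le_mul_of_nonneg_right (h1 n _) (norm_nonneg _)
      _ = _ := one_mul _
  have hg : ∀ n, (s n).g = ∑ i ∈ Finset.range n, φ i := by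
    intro n
    induction n with
    | zero => rfl
    | succ n ih => rw [hs, h4, ih, Finset.sum_range_succ]
  have hinv : ∀ n : ℕ, (n : ℝ) - 1 / 2 + (1 / 2) ^ n / 2 ≤ (s n).g (v n) := by
    intro n
    induction n with
    | zero => simp [hg]
    | succ n ih =>
      have e : (s (n + 1)).g (v (n + 1)) = (s n).g (v (n + 1)) + φ n (v (n + 1)) := by
        rw [hs, h4]; rfl
      have a1 : 1 - (1 / 2) ^ n / 8 ≤ φ n (v (n + 1)) := h2 n (s n)
      have a2 : (s n).g (v n) - (1 / 2) ^ n / 8 ≤ (s n).g (v (n + 1)) := h3 n (s n)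
      rw [e, pow_succ]
      push_cast
      linarith
  have hbig : ∀ i n, i < n → 1 / 2 ≤ φ i (v n) := by
    intro i n hi
    have a1 := hinv n
    rw [hg, ContinuousLinearMap.sum_apply,
      ← Finset.add_sum_erase _ _ (Finset.mem_range.2 hi)] at a1
    have a2 : ∑ j ∈ (Finset.range n).erase i, φ j (v n) ≤ n - 1 := by
      refine (Finset.sum_le_card_nsmul _ _ 1 fun j _ => (hle j _).trans (s n).N.norm_v).trans ?_
      rw [Finset.card_erase_of_mem (Finset.mem_range.2 hi), Finset.card_range, nsmul_eq_mul,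
        Nat.cast_sub (by omega)]
      simp
    have a3 : (0 : ℝ) ≤ (1 / 2) ^ n / 2 := by positivity
    linarith
  have hdom : ∀ i n, i ≤ n → Dom c.K (s n).ζ (s n).r (v i) := by
    intro i n hi
    induction n, hi using Nat.le_induction with
    | base => exact (s i).own
    | succ n _ ih => exact (h5 n (s n) _ ih).2
  obtain ⟨y, hy⟩ := exists_WL c.hX UU v 1 fun n => (s n).N.norm_v
  have hy1 : ∀ i, 1 / 2 ≤ φ i y := fun i => ge_of_tendsto (hy (φ i))
    (((eventually_gt_atTop i).mono fun n hn => hbig i n hn).filter_mono UU_le)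
  let E : Set X := {x | ∀ᶠ m in atTop, φ m x ≤ 1 / 8}
  have hE : Convex ℝ E := by
    intro x hx z hz a b ha hb hab
    filter_upwards [hx, hz] with m h h'
    simp only [map_add, map_smul, smul_eq_mul]
    nlinarith
  have hyE : y ∈ closure E := hy.mem hE.closure isClosed_closure (Eventually.of_forall fun i =>
    subset_closure ((eventually_ge_atTop i).mono fun n hn => (h5 n (s n) _ (hdom i n hn)).1))
  obtain ⟨x, hx, hxy⟩ := Metric.mem_closure_iff.1 hyE (1 / 8) (by norm_num)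
  obtain ⟨m, hm⟩ := hx.exists
  have := hle m (y - x)
  rw [map_sub, ← dist_eq_norm] at this
  linarith [hy1 m]

theorem fixed_point [CompleteSpace X] (hX : Refl X) {C : Set X} (hne : C.Nonempty)
    (hcl : IsClosed C) (hb : Bornology.IsBounded C) (hcv : Convex ℝ C) {T : X → X}
    (hT : MapsTo T C C) (hL : ∀ x ∈ C, ∀ y ∈ C, ‖T x - T y‖ ≤ ‖x - y‖) : ∃ x ∈ C, T x = x := by
  by_contra hcon
  push Not at hcon
  obtain ⟨M, hM⟩ := hb.exists_norm_le
  obtain ⟨K, hKC, hKne, hKcl, hKcv, hKT, hKmin⟩ := exists_minimal hX T hne hcl hcv hM hT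
  have hMK : ∀ x ∈ K, ‖x‖ ≤ M := fun x hx => hM x (hKC hx)
  have hLK : ∀ x ∈ K, ∀ y ∈ K, ‖T x - T y‖ ≤ ‖x - y‖ := fun x hx y hy => hL x (hKC hx) y (hKC hy)
  have hdiam : ∀ x ∈ K, ∀ y ∈ K, ‖x - y‖ ≤ Metric.diam K := fun x hx y hy => by
    rw [← dist_eq_norm]; exact Metric.dist_le_diam_of_mem (hb.subset hKC) hx hy
  have hd : 0 < Metric.diam K := by
    obtain ⟨x, hx⟩ := hKne
    exact (norm_pos_iff.2 (sub_ne_zero.2 (hcon x (hKC hx)))).trans_le (hdiam _ (hKT hx) _ hx)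
  have hθ0 : ∀ m : ℕ, (0 : ℝ) < 1 / ((m : ℝ) + 1) := fun m => by positivity
  have hθ1 : ∀ m : ℕ, 1 / ((m : ℝ) + 1) ≤ 1 := fun m => by
    rw [div_le_one (by positivity)]; linarith [Nat.cast_nonneg (α := ℝ) m]
  choose! J hJK hJ using fun (m : ℕ) (x : X) (hx : x ∈ K) =>
    exists_res hKcl hKcv hKT hLK (hθ0 m) (hθ1 m) hx
  have hD : ∀ m, ∀ x ∈ K, ‖J m x - T (J m x)‖ ≤ 1 / ((m : ℝ) + 1) * Metric.diam K := by
    intro m x hx
    have e : J m x - T (J m x) = (1 / ((m : ℝ) + 1)) • (x - T (J m x)) := by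
      nth_rewrite 1 [hJ m x hx]
      module
    rw [e, norm_smul, Real.norm_of_nonneg (hθ0 m).le]
    exact mul_le_mul_of_nonneg_left (hdiam _ hx _ (hKT (hJK m x hx))) (hθ0 m).le
  have hlim : Tendsto (fun m : ℕ => 1 / ((m : ℝ) + 1) * Metric.diam K) atTop (𝓝 0) := by
    simpa using tendsto_one_div_add_atTop_nhds_zero_nat.mul_const (Metric.diam K)
  choose! ψ Q hψ hQ using fun (z : X) (hz : z ∈ K) =>
    exists_subseq_WL hX (fun m => J m z) M fun m => hMK _ (hJK m z hz)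
  have hQK : MapsTo Q K K := fun z hz =>
    (hQ z hz).mem hKcv hKcl (Eventually.of_forall fun n => hJK _ z hz)
  obtain ⟨Z, hZK, hZne, hZcl, hZcv, hZQ, hZmin⟩ := exists_minimal hX Q hKne hKcl hKcv hMK hQK
  exact ctx_false
    { K := K, D := fun w => ‖w - T w‖, d := Metric.diam K, M := M, J := J
      c := fun m => (1 / ((m : ℝ) + 1))⁻¹, Z := Z, Q := Q, z0 := hZne.some, hX := hX
      cl := hKcl, cv := hKcv, bd := hMK, dpos := hd, diam := hdiam
      karl := fun S hS hSK η hη => by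
        obtain ⟨δ, hδ, h⟩ := unif_compact (fun ζ hζ η hη =>
          karlovitz hX hKne hKcl hKcv hMK hKT hLK hKmin hζ hη) hS hSK hη
        filter_upwards [hlim.eventually (ge_mem_nhds hδ)] with m hm x hx
        exact h _ (hJK m x hx) ((hD m x hx).trans hm)
      Jmem := hJK
      Jlip := fun m x hx y hy => res_lip hLK (hθ0 m) (hθ1 m) (hJK m x hx) (hJK m y hy)
        (hJ m x hx) (hJ m y hy)
      Jnear := fun m x hx w hw => by
        have := res_near hLK (hθ0 m) (hθ1 m) (hJK m x hx) hw (hJ m x hx)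
        rwa [div_eq_inv_mul] at this
      Dsmall := fun x hx => squeeze_zero (fun _ => norm_nonneg _) (fun m => hD m x hx) hlim
      ZK := hZK, z0mem := hZne.some_mem, QK := fun z hz => hQK (hZK hz)
      Zhull := (closure_hull_eq hZne hZcl hZcv hZQ hZmin).ge
      Qlim := fun z hz => ⟨ψ z, hψ z (hZK hz), hQ z (hZK hz)⟩ }

end Vale.Agent.P079
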