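import Vale.Agent.P079.Weak

/-! The Goebel-Karlovitz lemma and resolvents. -/

open Filter Topology Set

namespace Vale.Agent.P079

variable {X : Type*} [NormedAddCommGroup X] [NormedSpace ℝ X]

theorem karlovitz (hX : Refl X) {T : X → X} {K : Set X} (hne : K.Nonempty) (hcl : IsClosed K)
    (hcv : Convex ℝ K) {M : ℝ} (hM : ∀ x ∈ K, ‖x‖ ≤ M) (hT : MapsTo T K K)
    (hL : ∀ x ∈ K, ∀ y ∈ K, ‖T x - T y‖ ≤ ‖x - y‖)
    (hmin : ∀ D ⊆ K, D.Nonempty → IsClosed D → Convex ℝ D → MapsTo T D D → D = K)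
    {ζ : X} (hζ : ζ ∈ K) {η : ℝ} (hη : 0 < η) :
    ∃ δ > 0, ∀ y ∈ K, ‖y - T y‖ ≤ δ → Metric.diam K - η ≤ ‖y - ζ‖ := by
  by_contra hcon
  push Not at hcon
  choose! y hyK hy1 hy2 using hcon
  set r := Metric.diam K - η with hr
  let s : ℕ → X := fun n => y (1 / ((n : ℝ) + 1))
  have hpos : ∀ n : ℕ, (0 : ℝ) < 1 / ((n : ℝ) + 1) := fun n => by positivity
  have hsK : ∀ n, s n ∈ K := fun n => hyK _ (hpos n)
  let D : Set X := {x | x ∈ K ∧ ∀ ε > 0, ∀ᶠ n in atTop, ‖s n - x‖ ≤ r + ε}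
  have hD : D = K := by
    refine hmin D (fun x hx => hx.1)
      ⟨ζ, hζ, fun ε hε => Eventually.of_forall fun n => by linarith [hy2 _ (hpos n)]⟩ ?_ ?_ ?_
    · refine isClosed_of_closure_subset fun x hx => ⟨hcl.closure_subset
        (closure_mono (fun z hz => hz.1) hx), fun ε hε => ?_⟩
      obtain ⟨z, hz, hxz⟩ := Metric.mem_closure_iff.1 hx (ε / 2) (by positivity)
      filter_upwards [hz.2 (ε / 2) (by positivity)] with n hn
      rw [dist_comm, dist_eq_norm] at hxz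
      linarith [norm_sub_le_norm_sub_add_norm_sub (s n) z x]
    · intro x hx z hz a b ha hb hab
      refine ⟨hcv hx.1 hz.1 ha hb hab, fun ε hε => ?_⟩
      filter_upwards [hx.2 ε hε, hz.2 ε hε] with n h1 h2
      have := (convex_closedBall (s n) (r + ε)) (x := x) (by rwa [mem_closedBall_iff_norm'])
        (y := z) (by rwa [mem_closedBall_iff_norm']) ha hb hab
      rwa [mem_closedBall_iff_norm'] at this
    · intro x hx
      refine ⟨hT hx.1, fun ε hε => ?_⟩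
      filter_upwards [hx.2 (ε / 2) (by positivity),
        tendsto_one_div_add_atTop_nhds_zero_nat.eventually (ge_mem_nhds (half_pos hε))]
        with n h1 h2
      have h3 := hy1 _ (hpos n)
      have h4 := hL _ (hsK n) _ hx.1
      linarith [norm_sub_le_norm_sub_add_norm_sub (s n) (T (s n)) (T x)]
  obtain ⟨w, hw⟩ := exists_WL hX (Ultrafilter.of atTop) s M fun n => hM _ (hsK n)
  have hwK : w ∈ K := hw.mem hcv hcl (Eventually.of_forall hsK)
  let E : Set X := {z | z ∈ K ∧ ∀ x ∈ K, ‖z - x‖ ≤ r}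
  have hwE : w ∈ E := ⟨hwK, fun x hx => le_of_forall_pos_le_add fun ε hε =>
    hw.norm_sub_le (WL.const _ x) (((hD.symm ▸ hx : x ∈ D).2 ε hε).filter_mono
      (Ultrafilter.of_le _))⟩
  have hE : E = K := by
    have hEeq : E = K ∩ ⋂ x ∈ K, Metric.closedBall x r := by
      ext z; simp [E, dist_eq_norm]
    refine hmin E (fun x hx => hx.1) ⟨w, hwE⟩ ?_ ?_ ?_
    · rw [hEeq]
      exact hcl.inter (isClosed_biInter fun _ _ => Metric.isClosed_closedBall)
    · rw [hEeq]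
      exact hcv.inter (convex_iInter₂ fun x _ => convex_closedBall x r)
    · intro z hz
      refine ⟨hT hz.1, fun x hx => ?_⟩
      have : closure (convexHull ℝ (T '' K)) ⊆ Metric.closedBall (T z) r :=
        closure_minimal (convexHull_min (by
          rintro _ ⟨u, hu, rfl⟩
          rw [mem_closedBall_iff_norm']
          exact (hL _ hz.1 _ hu).trans (hz.2 u hu)) (convex_closedBall _ _))
          Metric.isClosed_closedBall
      rw [closure_hull_eq hne hcl hcv hT hmin] at this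
      exact mem_closedBall_iff_norm'.1 (this hx)
  have h0 : 0 ≤ r := (norm_nonneg _).trans (hwE.2 w hwK)
  have := Metric.diam_le_of_forall_dist_le h0 (s := K) fun x hx z hz => by
    rw [dist_eq_norm]; exact (hE.symm ▸ hx : x ∈ E).2 z hz
  linarith

theorem unif_compact {T : X → X} {K : Set X} {d : ℝ}
    (h : ∀ ζ ∈ K, ∀ η > 0, ∃ δ > 0, ∀ y ∈ K, ‖y - T y‖ ≤ δ → d - η ≤ ‖y - ζ‖)
    {S : Set X} (hS : IsCompact S) (hSK : S ⊆ K) {η : ℝ} (hη : 0 < η) :
    ∃ δ > 0, ∀ y ∈ K, ‖y - T y‖ ≤ δ → ∀ ζ ∈ S, d - η ≤ ‖y - ζ‖ := by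
  have := hS.eventually_forall_of_forall_eventually (x₀ := (0 : ℝ))
    (P := fun δ ζ => ∀ y ∈ K, ‖y - T y‖ ≤ δ → d - η ≤ ‖y - ζ‖) (fun ζ hζ => by
      obtain ⟨δ, hδ, hδ'⟩ := h ζ (hSK hζ) (η / 2) (by positivity)
      rw [nhds_prod_eq]
      filter_upwards [prod_mem_prod (Iio_mem_nhds hδ)
        (Metric.ball_mem_nhds ζ (half_pos hη))] with z hz y hy hy'
      have h1 := hδ' y hy (hy'.trans (le_of_lt hz.1))
      have h2 := mem_ball_iff_norm.1 hz.2
      linarith [norm_sub_le_norm_sub_add_norm_sub y z.2 ζ])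
  obtain ⟨ε, hε, hε'⟩ := Metric.eventually_nhds_iff.1 this
  refine ⟨ε / 2, by positivity, fun y hy hy' ζ hζ => hε' (y := ε / 2) ?_ ζ hζ y hy hy'⟩
  rw [Real.dist_eq, sub_zero, abs_of_pos (by positivity)]
  linarith

theorem exists_res [CompleteSpace X] {T : X → X} {K : Set X} (hcl : IsClosed K)
    (hcv : Convex ℝ K) (hT : MapsTo T K K) (hL : ∀ x ∈ K, ∀ y ∈ K, ‖T x - T y‖ ≤ ‖x - y‖)
    {θ : ℝ} (h0 : 0 < θ) (h1 : θ ≤ 1) {x : X} (hx : x ∈ K) :
    ∃ y ∈ K, y = (1 - θ) • T y + θ • x := by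
  let f : X → X := fun y => (1 - θ) • T y + θ • x
  have hf : MapsTo f K K := fun y hy => hcv (hT hy) hx (by linarith) h0.le (by ring)
  have hc : ContractingWith ⟨1 - θ, by linarith⟩ (hf.restrict f K K) := by
    refine ⟨by change 1 - θ < 1; linarith, LipschitzWith.of_dist_le_mul fun a b => ?_⟩
    change dist (f a) (f b) ≤ (1 - θ) * dist (a : X) b
    rw [dist_eq_norm, dist_eq_norm]
    have : f a - f b = (1 - θ) • (T a - T b) := by simp only [f]; module
    rw [this, norm_smul, Real.norm_of_nonneg (by linarith)]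
    exact mul_le_mul_of_nonneg_left (hL _ a.2 _ b.2) (by linarith)
  obtain ⟨y, hy, hfy, -⟩ := ContractingWith.exists_fixedPoint' hcl.isComplete hf hc hx
    (edist_ne_top _ _)
  exact ⟨y, hy, hfy.symm⟩

theorem res_near {T : X → X} {K : Set X} (hL : ∀ x ∈ K, ∀ y ∈ K, ‖T x - T y‖ ≤ ‖x - y‖)
    {θ : ℝ} (h0 : 0 < θ) (h1 : θ ≤ 1) {x y w : X} (hy : y ∈ K) (hw : w ∈ K)
    (h : y = (1 - θ) • T y + θ • x) : ‖y - w‖ ≤ ‖x - w‖ + ‖w - T w‖ / θ := by
  have e : y - w = (1 - θ) • (T y - T w) + θ • (x - w) - (1 - θ) • (w - T w) := by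
    conv_lhs => rw [h]
    module
  have h2 : ‖y - w‖ ≤ (1 - θ) * ‖y - w‖ + θ * ‖x - w‖ + ‖w - T w‖ := by
    conv_lhs => rw [e]
    refine (norm_sub_le _ _).trans (add_le_add ((norm_add_le _ _).trans (add_le_add ?_ ?_)) ?_)
    · rw [norm_smul, Real.norm_of_nonneg (by linarith)]
      exact mul_le_mul_of_nonneg_left (hL _ hy _ hw) (by linarith)
    · rw [norm_smul, Real.norm_of_nonneg h0.le]
    · rw [norm_smul, Real.norm_of_nonneg (by linarith)]
      nlinarith [norm_nonneg (w - T w)]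
  rw [← sub_le_iff_le_add', le_div_iff₀ h0]
  linarith

theorem res_lip {T : X → X} {K : Set X} (hL : ∀ x ∈ K, ∀ y ∈ K, ‖T x - T y‖ ≤ ‖x - y‖)
    {θ : ℝ} (h0 : 0 < θ) (h1 : θ ≤ 1) {x y x' y' : X} (hy : y ∈ K) (hy' : y' ∈ K)
    (h : y = (1 - θ) • T y + θ • x) (h' : y' = (1 - θ) • T y' + θ • x') :
    ‖y - y'‖ ≤ ‖x - x'‖ := by
  have e : y - y' = (1 - θ) • (T y - T y') + θ • (x - x') := by
    conv_lhs => rw [h, h']
    module
  have h2 : ‖y - y'‖ ≤ (1 - θ) * ‖y - y'‖ + θ * ‖x - x'‖ := by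
    conv_lhs => rw [e]
    refine (norm_add_le _ _).trans (add_le_add ?_ ?_)
    · rw [norm_smul, Real.norm_of_nonneg (by linarith)]
      exact mul_le_mul_of_nonneg_left (hL _ hy _ hy') (by linarith)
    · rw [norm_smul, Real.norm_of_nonneg h0.le]
  nlinarith

end Vale.Agent.P079
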