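import Vale.Agent.P079.Karl

/-! Nodes of the bush and their children. -/

open Filter Topology Set

namespace Vale.Agent.P079

variable {X : Type*} [NormedAddCommGroup X] [NormedSpace ℝ X]

/-- the data extracted from a fixed point free map on a minimal set -/
structure Ctx (X : Type*) [NormedAddCommGroup X] [NormedSpace ℝ X] where
  K : Set X
  D : X → ℝ
  d : ℝ
  M : ℝ
  J : ℕ → X → X
  c : ℕ → ℝ
  Z : Set X
  Q : X → X
  z0 : X
  hX : Refl X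
  cl : IsClosed K
  cv : Convex ℝ K
  bd : ∀ x ∈ K, ‖x‖ ≤ M
  dpos : 0 < d
  diam : ∀ x ∈ K, ∀ y ∈ K, ‖x - y‖ ≤ d
  karl : ∀ S, IsCompact S → S ⊆ K → ∀ η > 0, ∀ᶠ m in atTop, ∀ x ∈ K, ∀ ζ ∈ S,
    d - η ≤ ‖J m x - ζ‖
  Jmem : ∀ m, ∀ x ∈ K, J m x ∈ K
  Jlip : ∀ m, ∀ x ∈ K, ∀ y ∈ K, ‖J m x - J m y‖ ≤ ‖x - y‖
  Jnear : ∀ m, ∀ x ∈ K, ∀ w ∈ K, ‖J m x - w‖ ≤ ‖x - w‖ + c m * D w
  Dsmall : ∀ x ∈ K, Tendsto (fun m => D (J m x)) atTop (𝓝 0)
  ZK : Z ⊆ K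
  z0mem : z0 ∈ Z
  QK : ∀ z ∈ Z, Q z ∈ K
  Zhull : Z ⊆ closure (convexHull ℝ (Q '' Z))
  Qlim : ∀ z ∈ Z, ∃ φ : ℕ → ℕ, StrictMono φ ∧ WL atTop (fun n => J (φ n) z) (Q z)

/-- a fixed nonprincipal ultrafilter -/
noncomputable def UU : Ultrafilter ℕ := Ultrafilter.of atTop

theorem UU_le : (UU : Filter ℕ) ≤ atTop := Ultrafilter.of_le _

namespace Ctx

variable (c : Ctx X)

/-- the deep approximate fixed point sequence -/
def q (l : ℕ) : X := c.J l c.z0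

theorem q_mem (l : ℕ) : c.q l ∈ c.K := c.Jmem _ _ (c.ZK c.z0mem)

/-- valid states -/
def Valid (s : X × ℝ) : Prop := 0 ≤ s.2 ∧ s.2 ≤ 1 ∧ ∃ k ∈ c.K, s.1 = s.2 • k

/-- the argument of the resolvent attached to a state -/
def arg (s : X × ℝ) (l : ℕ) : X := s.1 + (1 - s.2) • c.q l

variable {c}

theorem Valid.arg_mem {s : X × ℝ} (h : c.Valid s) (l : ℕ) : c.arg s l ∈ c.K := by
  obtain ⟨h0, h1, k, hk, e⟩ := h
  rw [arg, e]
  exact c.cv hk (c.q_mem l) h0 (by linarith) (by ring)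

theorem Valid.add {s : X × ℝ} (h : c.Valid s) {w : X} (hw : w ∈ c.K) {a : ℝ} (ha : 0 ≤ a)
    (ha1 : s.2 + a ≤ 1) : c.Valid (s + a • (w, 1)) := by
  obtain ⟨h0, h1, k, hk, e⟩ := h
  obtain ⟨k', hk', e'⟩ := c.cv.exists_mem_add_smul_eq hk hw h0 ha
  refine ⟨by simpa using add_nonneg h0 ha, by simpa using ha1, k', hk', ?_⟩
  simp [e, e']

theorem Valid.dist_le {s : X × ℝ} (h : c.Valid s) {w : X} (hw : w ∈ c.K) {a : ℝ}
    (ha1 : s.2 + a ≤ 1) (l : ℕ) : ‖c.arg (s + a • (w, 1)) l - w‖ ≤ (1 - a) * c.d := by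
  obtain ⟨h0, h1, k, hk, e⟩ := h
  have : c.arg (s + a • (w, 1)) l - w = s.2 • (k - w) + (1 - s.2 - a) • (c.q l - w) := by
    simp only [arg, Prod.fst_add, Prod.snd_add, Prod.smul_mk, e, smul_eq_mul, mul_one]
    module
  rw [this]
  refine (norm_add_le _ _).trans ?_
  rw [norm_smul, norm_smul, Real.norm_of_nonneg h0, Real.norm_of_nonneg (by linarith)]
  nlinarith [mul_le_mul_of_nonneg_left (c.diam _ hk _ hw) h0,
    mul_le_mul_of_nonneg_left (c.diam _ (c.q_mem l) _ hw) (show 0 ≤ 1 - s.2 - a by linarith)]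

end Ctx

/-- a node -/
structure Node (c : Ctx X) where
  Φ : ℕ → X → X
  H : ℝ
  C : ℝ
  m : ℕ
  z : X
  a : X
  b : X
  Hpos : 0 < H
  zmem : z ∈ c.Z
  maps : ∀ l, ∀ w ∈ c.K, Φ l w ∈ c.K
  lip : ∀ l, ∀ w ∈ c.K, ∀ w' ∈ c.K, ‖Φ l w - Φ l w'‖ ≤ H * ‖w - w'‖
  tight : ∀ l, ∀ w ∈ c.K, ‖Φ l w - w‖ ≤ (1 - H) * c.d + C * c.D w
  ha : WL UU (fun l => Φ l (c.J m z)) a
  hb : WL UU (fun l => Φ l (c.q l)) b

namespace Node

variable {c : Ctx X} (N : Node c)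

theorem a_mem : N.a ∈ c.K := N.ha.mem c.cv c.cl
  (Eventually.of_forall fun l => N.maps l _ (c.Jmem _ _ (c.ZK N.zmem)))

theorem b_mem : N.b ∈ c.K := N.hb.mem c.cv c.cl
  (Eventually.of_forall fun l => N.maps l _ (c.q_mem l))

/-- the normalized increment -/
noncomputable def v : X := (N.H * c.d)⁻¹ • (N.a - N.b)

theorem smul_v : (N.H * c.d) • N.v = N.a - N.b := by
  rw [v, smul_smul, mul_inv_cancel₀ (mul_pos N.Hpos c.dpos).ne', one_smul]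

theorem norm_v : ‖N.v‖ ≤ 1 := by
  have h : ‖N.a - N.b‖ ≤ N.H * c.d := N.ha.norm_sub_le N.hb (Eventually.of_forall fun l =>
    (N.lip l _ (c.Jmem _ _ (c.ZK N.zmem)) _ (c.q_mem l)).trans
      (mul_le_mul_of_nonneg_left (c.diam _ (c.Jmem _ _ (c.ZK N.zmem)) _ (c.q_mem l)) N.Hpos.le))
  have hp := mul_pos N.Hpos c.dpos
  rw [← N.smul_v, norm_smul, Real.norm_of_nonneg hp.le] at h
  nlinarith

open Classical in
/-- the weak limit attached to a state -/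
noncomputable def P (s : X × ℝ) : X :=
  if h : ∃ y, WL UU (fun l => N.Φ l (c.J N.m (c.arg s l))) y then h.choose else 0

theorem P_spec {s : X × ℝ} (hs : c.Valid s) :
    WL UU (fun l => N.Φ l (c.J N.m (c.arg s l))) (N.P s) := by
  have h : ∃ y, WL UU (fun l => N.Φ l (c.J N.m (c.arg s l))) y :=
    exists_WL c.hX UU _ c.M fun l => c.bd _ (N.maps l _ (c.Jmem _ _ (hs.arg_mem l)))
  rw [P, dif_pos h]
  exact h.choose_spec

theorem P_mem {s : X × ℝ} (hs : c.Valid s) : N.P s ∈ c.K :=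
  (N.P_spec hs).mem c.cv c.cl
    (Eventually.of_forall fun l => N.maps l _ (c.Jmem _ _ (hs.arg_mem l)))

theorem P_dist {s t : X × ℝ} (hs : c.Valid s) (ht : c.Valid t) {r : ℝ}
    (h : ∀ l, ‖c.arg s l - c.arg t l‖ ≤ r) : ‖N.P s - N.P t‖ ≤ N.H * r :=
  (N.P_spec hs).norm_sub_le (N.P_spec ht) (Eventually.of_forall fun l =>
    (N.lip l _ (c.Jmem _ _ (hs.arg_mem l)) _ (c.Jmem _ _ (ht.arg_mem l))).trans
      (mul_le_mul_of_nonneg_left ((c.Jlip _ _ (hs.arg_mem l) _ (ht.arg_mem l)).trans (h l))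
        N.Hpos.le))

theorem P_cont : ContinuousOn N.P {s | c.Valid s} := by
  have hM : 0 ≤ c.M := (norm_nonneg _).trans (c.bd _ (c.q_mem 0))
  refine (LipschitzOnWith.of_dist_le_mul (K := ⟨N.H * (1 + c.M), by
    have := N.Hpos; positivity⟩) fun s hs t ht => ?_).continuousOn
  rw [dist_eq_norm, dist_eq_norm]
  change _ ≤ N.H * (1 + c.M) * _
  rw [mul_assoc]
  refine N.P_dist hs ht fun l => ?_
  have : c.arg s l - c.arg t l = (s - t).1 - (s - t).2 • c.q l := by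
    simp only [Ctx.arg, Prod.fst_sub, Prod.snd_sub]
    module
  rw [this]
  refine (norm_sub_le _ _).trans ?_
  rw [norm_smul]
  nlinarith [norm_fst_le (s - t), mul_le_mul (norm_snd_le (s - t)) (c.bd _ (c.q_mem l))
    (norm_nonneg _) (norm_nonneg _)]

theorem P_step {s : X × ℝ} (hs : c.Valid s) {w w' : X} (hw : w ∈ c.K) (hw' : w' ∈ c.K) {a : ℝ}
    (ha : 0 ≤ a) (ha1 : s.2 + a ≤ 1) :
    ‖N.P (s + a • (w, 1)) - N.P (s + a • (w', 1))‖ ≤ N.H * (a * ‖w - w'‖) :=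
  N.P_dist (hs.add hw ha ha1) (hs.add hw' ha ha1) fun l => by
    have : c.arg (s + a • (w, 1)) l - c.arg (s + a • (w', 1)) l = a • (w - w') := by
      simp only [Ctx.arg, Prod.fst_add, Prod.snd_add, Prod.smul_mk]
      module
    rw [this, norm_smul, Real.norm_of_nonneg ha]

theorem P_step' {s : X × ℝ} (hs : c.Valid s) {w : X} (hw : w ∈ c.K) {a : ℝ}
    (ha : 0 ≤ a) (ha1 : s.2 + a ≤ 1) :
    ‖N.P (s + a • (w, 1)) - N.P s‖ ≤ N.H * (a * c.d) :=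
  N.P_dist (hs.add hw ha ha1) hs fun l => by
    have : c.arg (s + a • (w, 1)) l - c.arg s l = a • (w - c.q l) := by
      simp only [Ctx.arg, Prod.fst_add, Prod.snd_add, Prod.smul_mk, smul_eq_mul, mul_one]
      module
    rw [this, norm_smul, Real.norm_of_nonneg ha]
    exact mul_le_mul_of_nonneg_left (c.diam _ hw _ (c.q_mem l)) ha

theorem valid_zero : c.Valid 0 := ⟨le_rfl, zero_le_one, c.q 0, c.q_mem 0, by simp⟩

theorem P_zero : N.P 0 = N.b := by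
  refine (N.P_spec valid_zero).unique N.hb (Tendsto.mono_left ?_ UU_le)
  have h := ((c.Dsmall _ (c.ZK c.z0mem)).const_mul (c.c N.m)).const_mul N.H
  simp only [mul_zero] at h
  refine squeeze_zero (fun _ => norm_nonneg _) (fun l => ?_) h
  have e : c.arg 0 l = c.q l := by simp [Ctx.arg]
  rw [e]
  refine (N.lip l _ (c.Jmem _ _ (c.q_mem l)) _ (c.q_mem l)).trans
    (mul_le_mul_of_nonneg_left ?_ N.Hpos.le)
  simpa [Ctx.q] using c.Jnear N.m _ (c.q_mem l) _ (c.q_mem l)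

theorem P_one : N.P (0 + (1 : ℝ) • (N.z, 1)) = N.a := by
  refine (N.P_spec (valid_zero.add (c.ZK N.zmem) zero_le_one (by simp))).unique N.ha ?_
  simp [Ctx.arg]

/-- the child of a node -/
noncomputable def child {s : X × ℝ} (hs : c.Valid s) {a : ℝ} (ha : 0 < a) (ha1 : s.2 + a ≤ 1)
    (m' : ℕ) {z' : X} (hz' : z' ∈ c.Z) : Node c where
  Φ l w := N.Φ l (c.J N.m (c.arg (s + a • (w, 1)) l))
  H := N.H * a
  C := N.C + N.H * c.c N.m
  m := m'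
  z := z'
  a := N.P (s + a • (c.J m' z', 1))
  b := N.P s
  Hpos := mul_pos N.Hpos ha
  zmem := hz'
  maps l w hw := N.maps l _ (c.Jmem _ _ ((hs.add hw ha.le ha1).arg_mem l))
  lip l w hw w' hw' := by
    have h1 := (hs.add hw ha.le ha1).arg_mem l
    have h2 := (hs.add hw' ha.le ha1).arg_mem l
    refine (N.lip l _ (c.Jmem _ _ h1) _ (c.Jmem _ _ h2)).trans ?_
    rw [mul_assoc]
    refine mul_le_mul_of_nonneg_left ((c.Jlip _ _ h1 _ h2).trans (le_of_eq ?_)) N.Hpos.le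
    have : c.arg (s + a • (w, 1)) l - c.arg (s + a • (w', 1)) l = a • (w - w') := by
      simp only [Ctx.arg, Prod.fst_add, Prod.snd_add, Prod.smul_mk]
      module
    rw [this, norm_smul, Real.norm_of_nonneg ha.le]
  tight l w hw := by
    have h1 := (hs.add hw ha.le ha1).arg_mem l
    have h2 := N.lip l _ (c.Jmem N.m _ h1) _ hw
    have h3 := N.tight l w hw
    have h4 := mul_le_mul_of_nonneg_left
      ((c.Jnear N.m _ h1 _ hw).trans (add_le_add (hs.dist_le hw ha1 l) le_rfl)) N.Hpos.le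
    have h5 := norm_sub_le_norm_sub_add_norm_sub
      (N.Φ l (c.J N.m (c.arg (s + a • (w, 1)) l))) (N.Φ l w) w
    linarith
  ha := N.P_spec (hs.add (c.Jmem _ _ (c.ZK hz')) ha.le ha1)
  hb := by
    have : ∀ l, c.arg (s + a • (c.q l, 1)) l = c.arg s l := fun l => by
      simp only [Ctx.arg, Prod.fst_add, Prod.snd_add, Prod.smul_mk, smul_eq_mul, mul_one]
      module
    simpa only [this] using N.P_spec hs

theorem sep {ζ : X} (hζ : ζ ∈ c.K) {η : ℝ}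
    (h : c.d - η ≤ ‖c.J N.m N.z - ((1 / 2 : ℝ) • N.b + (1 / 2 : ℝ) • ζ)‖) :
    ∃ φ : StrongDual ℝ X, ‖φ‖ ≤ 1 ∧
      N.H * c.d - 2 * η - N.C * c.D (c.J N.m N.z) ≤ φ (N.a - N.b) ∧
      ∀ ξ ∈ c.K, φ (ζ - ξ) ≤ 2 * η := by
  set w := c.J N.m N.z with hw
  have hwK : w ∈ c.K := c.Jmem _ _ (c.ZK N.zmem)
  obtain ⟨φ, hφ, hφw⟩ := exists_dual_vector'' ℝ (w - ((1 / 2 : ℝ) • N.b + (1 / 2 : ℝ) • ζ))
  have hle : ∀ x, φ x ≤ ‖x‖ := fun x =>
    calc φ x ≤ ‖φ‖ * ‖x‖ := (le_abs_self _).trans (φ.le_opNorm _)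
      _ ≤ 1 * ‖x‖ := mul_le_mul_of_nonneg_right hφ (norm_nonneg _)
      _ = _ := one_mul _
  have h1 : c.d - η ≤ φ w - (1 / 2 * φ N.b + 1 / 2 * φ ζ) := by
    have : φ (w - ((1 / 2 : ℝ) • N.b + (1 / 2 : ℝ) • ζ)) =
        ‖w - ((1 / 2 : ℝ) • N.b + (1 / 2 : ℝ) • ζ)‖ := hφw
    rw [← this] at h
    simpa only [map_sub, map_add, map_smul, smul_eq_mul] using h
  have h2 : ∀ ξ ∈ c.K, φ w - φ ξ ≤ c.d := fun ξ hξ => by
    rw [← map_sub]; exact (hle _).trans (c.diam _ hwK _ hξ)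
  have h3 : ‖N.a - w‖ ≤ (1 - N.H) * c.d + N.C * c.D w :=
    N.ha.norm_sub_le (WL.const _ w) (Eventually.of_forall fun l => N.tight l w hwK)
  have h4 := hle (w - N.a)
  rw [norm_sub_rev, map_sub] at h4
  refine ⟨φ, hφ, ?_, fun ξ hξ => ?_⟩
  · rw [map_sub]
    linarith [h2 _ hζ]
  · rw [map_sub]
    linarith [h2 _ hξ, h2 _ N.b_mem]

end Node

end Vale.Agent.P079
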