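import Vale.Agent.P079.Node

/-! The inductive step. -/

open Filter Topology Set

namespace Vale.Agent.P079

variable {X : Type*} [NormedAddCommGroup X] [NormedSpace ℝ X] {c : Ctx X}

/-- Averaging lemma: a function that does not increase when a deep leaf is added does not
increase when a weak limit of leaves is added. -/
theorem avg_lemma (f : X × ℝ → ℝ) (κ L : ℝ) (hκ : 0 ≤ κ) {z : X} (hz : z ∈ c.Z)
    (hbad : ∀ s, c.Valid s → ∀ w ∈ c.K, ∀ a, 0 ≤ a → s.2 + a ≤ 1 →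
      f (s + a • (w, 1)) ≤ f s + κ * a)
    (hlip : ∀ s, c.Valid s → ∀ w ∈ c.K, ∀ w' ∈ c.K, ∀ a, 0 ≤ a → s.2 + a ≤ 1 →
      f (s + a • (w, 1)) ≤ f (s + a • (w', 1)) + L * ‖w - w'‖)
    (hgood : ∀ σ : Set (X × ℝ), IsCompact σ → (∀ s ∈ σ, c.Valid s) → ∀ ε > 0,
      ∀ᶠ m in atTop, ∀ s ∈ σ, ∀ a, ε ≤ a → s.2 + a ≤ 1 → f (s + a • (c.J m z, 1)) ≤ f s)
    {s0 : X × ℝ} (hs0 : c.Valid s0) {b : ℝ} (hb : 0 ≤ b) (hb1 : s0.2 + b ≤ 1) :
    f (s0 + b • (c.Q z, 1)) ≤ f s0 := by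
  obtain ⟨φ, hφ, hW⟩ := c.Qlim z hz
  have hwK : ∀ k, c.J (φ k) z ∈ c.K := fun k => c.Jmem _ _ (c.ZK hz)
  have main : ∀ ε > 0, f (s0 + b • (c.Q z, 1)) ≤ f s0 + (2 * κ + |L|) * ε := by
    intro ε hε
    have hex : ∀ (j : ℕ) (σ : Set (X × ℝ)), IsCompact σ → (∀ s ∈ σ, c.Valid s) →
        ∃ k, j ≤ k ∧ ∀ s ∈ σ, ∀ a, ε * (1 / 2) ^ j ≤ a → s.2 + a ≤ 1 →
          f (s + a • (c.J (φ k) z, 1)) ≤ f s := fun j σ h1 h2 =>
      ((eventually_ge_atTop j).and (hφ.tendsto_atTop.eventually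
        (hgood σ h1 h2 _ (by positivity)))).exists
    choose! kf hk1 hk2 using hex
    let σ : ℕ → Set (X × ℝ) := fun n => Nat.rec {s0} (fun j τ =>
      (fun p : (X × ℝ) × ℝ => p.1 + p.2 • (c.J (φ (kf j τ)) z, (1 : ℝ))) ''
        ((τ ×ˢ Icc 0 1) ∩ {p | p.1.2 + p.2 ≤ 1})) n
    let w : ℕ → X := fun j => c.J (φ (kf j (σ j))) z
    have hσs : ∀ j, σ (j + 1) = (fun p : (X × ℝ) × ℝ => p.1 + p.2 • (w j, (1 : ℝ))) ''
        ((σ j ×ˢ Icc 0 1) ∩ {p | p.1.2 + p.2 ≤ 1}) := fun j => rfl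
    have hσ : ∀ j, IsCompact (σ j) ∧ ∀ s ∈ σ j, c.Valid s := by
      intro j
      induction j with
      | zero => exact ⟨isCompact_singleton, fun s hs => by rw [mem_singleton_iff.1 hs]; exact hs0⟩
      | succ j ih =>
        rw [hσs]
        refine ⟨((ih.1.prod isCompact_Icc).inter_right
          (isClosed_le (by fun_prop) continuous_const)).image (by fun_prop), ?_⟩
        rintro _ ⟨p, ⟨⟨h1, h2⟩, h3⟩, rfl⟩
        exact (ih.2 _ h1).add (hwK _) h2.1 h3
    have hmem : ∀ j, ∀ s ∈ σ j, ∀ a, 0 ≤ a → s.2 + a ≤ 1 → s + a • (w j, 1) ∈ σ (j + 1) :=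
      fun j s hs a ha ha1 => ⟨(s, a), ⟨⟨hs, ha, by linarith [((hσ j).2 s hs).1]⟩, ha1⟩, rfl⟩
    have hmono : Monotone σ := monotone_nat_of_le_succ fun j s hs => by
      simpa using hmem j s hs 0 le_rfl (by simpa using ((hσ j).2 s hs).2.1)
    have htel : ∀ (a : ℕ → ℝ) (t : Finset ℕ), (∀ j ∈ t, 0 ≤ a j) → s0.2 + ∑ j ∈ t, a j ≤ 1 →
        ∀ n, (∀ j ∈ t, j < n) → s0 + ∑ j ∈ t, a j • (w j, (1 : ℝ)) ∈ σ n ∧
          f (s0 + ∑ j ∈ t, a j • (w j, (1 : ℝ))) ≤
            f s0 + κ * ∑ j ∈ t, ε * (1 / 2) ^ j := by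
      intro a t
      induction t using Finset.induction_on_max with
      | empty => exact fun _ _ n _ => ⟨by simpa using hmono (Nat.zero_le n) rfl, by simp⟩
      | insert j t hj ih =>
        intro h0 h1 n hn
        have hjt : j ∉ t := fun h => lt_irrefl _ (hj j h)
        have haj := h0 j (Finset.mem_insert_self _ _)
        rw [Finset.sum_insert hjt] at h1
        obtain ⟨i1, i2⟩ := ih (fun i hi => h0 i (Finset.mem_insert_of_mem hi)) (by linarith) j hj
        have e2 : (s0 + ∑ i ∈ t, a i • (w i, (1 : ℝ))).2 + a j ≤ 1 := by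
          simp only [Prod.snd_add, Prod.snd_sum, Prod.smul_mk, smul_eq_mul, mul_one]
          linarith
        rw [Finset.sum_insert hjt, Finset.sum_insert hjt, add_comm (a j • _), ← add_assoc]
        refine ⟨hmono (hn j (Finset.mem_insert_self _ _)) (hmem j _ i1 _ haj e2), ?_⟩
        have hpos : 0 ≤ κ * (ε * (1 / 2) ^ j) := by positivity
        rcases le_total (ε * (1 / 2) ^ j) (a j) with h | h
        · have := hk2 j (σ j) (hσ j).1 (hσ j).2 _ i1 _ h e2
          rw [mul_add]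
          linarith
        · have := hbad _ ((hσ j).2 _ i1) _ (hwK (kf j (σ j))) _ haj e2
          rw [mul_add]
          linarith [mul_le_mul_of_nonneg_left h hκ]
    have hWw : WL atTop w (c.Q z) := fun g => (hW g).comp
      (tendsto_atTop_mono (fun j => hk1 j (σ j) (hσ j).1 (hσ j).2) tendsto_id)
    have hcl : c.Q z ∈ closure (convexHull ℝ (range w)) :=
      hWw.mem (convex_convexHull ℝ _).closure isClosed_closure (Eventually.of_forall fun j =>
        subset_closure (subset_convexHull ℝ _ (mem_range_self j)))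
    obtain ⟨y, hy, hyd⟩ := Metric.mem_closure_iff.1 hcl ε hε
    have hyK : y ∈ c.K := convexHull_min (by rintro _ ⟨j, rfl⟩; exact hwK _) c.cv hy
    rw [convexHull_range_eq_exists_affineCombination] at hy
    obtain ⟨t, a, ha0, ha1, rfl⟩ := hy
    rw [Finset.affineCombination_eq_linear_combination _ _ _ ha1] at hyd hyK
    obtain ⟨n, hn⟩ := t.bddAbove
    have h1 := (htel (fun j => b * a j) t (fun j hj => mul_nonneg hb (ha0 j hj))
      (by rw [← Finset.mul_sum, ha1, mul_one]; exact hb1) (n + 1)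
      fun j hj => Nat.lt_succ_of_le (hn hj)).2
    have e : ∑ j ∈ t, (b * a j) • (w j, (1 : ℝ)) = b • (∑ j ∈ t, a j • w j, (1 : ℝ)) := by
      ext
      · simp [Prod.fst_sum, Finset.smul_sum, mul_smul]
      · simp [Prod.snd_sum, ← Finset.mul_sum, ha1]
    rw [e] at h1
    have h2 := hlip s0 hs0 _ (c.QK z hz) _ hyK b hb hb1
    have h3 : ∑ j ∈ t, ε * (1 / 2 : ℝ) ^ j ≤ ε * 2 := by
      rw [← Finset.mul_sum]
      exact mul_le_mul_of_nonneg_left ((summable_geometric_two.sum_le_tsum t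
        fun _ _ => by positivity).trans tsum_geometric_two.le) hε.le
    rw [dist_eq_norm] at hyd
    have h4 : L * ‖c.Q z - ∑ j ∈ t, a j • w j‖ ≤ |L| * ε :=
      mul_le_mul (le_abs_self _) hyd.le (norm_nonneg _) (abs_nonneg _)
    nlinarith [mul_le_mul_of_nonneg_left h3 hκ]
  refine le_of_forall_pos_le_add fun δ hδ => ?_
  have hp : 0 < 2 * κ + |L| + 1 := by positivity
  have := main (δ / (2 * κ + |L| + 1)) (by positivity)
  have h2 : (2 * κ + |L|) * (δ / (2 * κ + |L| + 1)) ≤ δ := by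
    rw [← mul_div_assoc, div_le_iff₀ hp]
    nlinarith
  linarith

theorem step (N : Node c) (g : StrongDual ℝ X) {ζ : X} (hζ : ζ ∈ c.K) {δ η : ℝ} (hδ : 0 < δ)
    (hη : 0 < η) : ∃ (N' : Node c) (φ : StrongDual ℝ X), ‖φ‖ ≤ 1 ∧ 1 - δ ≤ φ N'.v ∧
      (∀ ξ ∈ c.K, φ (ζ - ξ) ≤ η) ∧ g N.v - δ ≤ g N'.v := by
  by_contra hcon
  push Not at hcon
  have hH := N.Hpos
  have hd := c.dpos
  set lam := g N.v - δ with hlam
  let f : X × ℝ → ℝ := fun s => g (N.P s) - N.H * c.d * lam * s.2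
  have hf0 : ∀ s, f s = g (N.P s) - N.H * c.d * lam * s.2 := fun _ => rfl
  have hf : ∀ (s : X × ℝ) (w : X) (a : ℝ), f (s + a • (w, 1)) =
      g (N.P (s + a • (w, 1))) - N.H * c.d * lam * (s.2 + a) := fun s w a => by
    rw [hf0]; simp
  have hg : ∀ x, g x ≤ ‖g‖ * ‖x‖ := fun x => (le_abs_self _).trans (g.le_opNorm _)
  have hlamg : lam ≤ ‖g‖ := by
    have := (hg N.v).trans (mul_le_mul_of_nonneg_left N.norm_v (norm_nonneg _))
    linarith
  have hlip : ∀ s, c.Valid s → ∀ w ∈ c.K, ∀ w' ∈ c.K, ∀ a, 0 ≤ a → s.2 + a ≤ 1 →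
      f (s + a • (w, 1)) ≤ f (s + a • (w', 1)) + (‖g‖ * N.H) * ‖w - w'‖ := by
    intro s hs w hw w' hw' a ha ha1
    have h1 := (hg _).trans
      (mul_le_mul_of_nonneg_left (N.P_step hs hw hw' ha ha1) (norm_nonneg _))
    rw [map_sub] at h1
    have h2 : a ≤ 1 := by linarith [hs.1]
    have h3 : ‖g‖ * (N.H * (a * ‖w - w'‖)) ≤ ‖g‖ * N.H * ‖w - w'‖ := by
      rw [mul_assoc]
      gcongr
      exact mul_le_of_le_one_left (norm_nonneg _) h2
    rw [hf, hf]
    linarith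
  have hQ : ∀ z ∈ c.Z, ∀ s, c.Valid s → ∀ b, 0 ≤ b → s.2 + b ≤ 1 →
      f (s + b • (c.Q z, 1)) ≤ f s := by
    intro z hz s hs b hb hb1
    refine avg_lemma f (N.H * c.d * (‖g‖ - lam)) (‖g‖ * N.H)
      (mul_nonneg (by positivity) (by linarith)) hz ?_ hlip ?_ hs hb hb1
    · intro s hs w hw a ha ha1
      have h1 := (hg _).trans
        (mul_le_mul_of_nonneg_left (N.P_step' hs hw ha ha1) (norm_nonneg _))
      rw [map_sub] at h1
      rw [hf, hf0]
      linarith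
    · intro σ hσ hσv ε hε
      set ρ := min (η / 2) (δ * (N.H * ε * c.d) / 4) with hρ
      have hρ0 : 0 < ρ := lt_min (by positivity) (by positivity)
      have hS : IsCompact ((fun s => (1 / 2 : ℝ) • N.P s + (1 / 2 : ℝ) • ζ) '' σ) :=
        hσ.image_of_continuousOn (((N.P_cont.mono hσv).const_smul _).add continuousOn_const)
      have h1 := c.karl _ hS (by
        rintro _ ⟨s, hs, rfl⟩
        exact c.cv (N.P_mem (hσv s hs)) hζ (by norm_num) (by norm_num) (by norm_num)) ρ hρ0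
      have h2 := (c.Dsmall z (c.ZK hz)).const_mul (N.C + N.H * c.c N.m)
      rw [mul_zero] at h2
      filter_upwards [h1, h2.eventually (ge_mem_nhds hρ0)] with m hm1 hm2 s hs a ha ha1
      have ha0 : 0 < a := hε.trans_le ha
      let N' := N.child (hσv s hs) ha0 ha1 m hz
      obtain ⟨φ, hφ1, hφ2, hφ3⟩ := N'.sep hζ (hm1 z (c.ZK hz) _ (mem_image_of_mem _ hs))
      have hp : 0 < N.H * a * c.d := by positivity
      have hv : ∀ ψ : StrongDual ℝ X, ψ (N'.a - N'.b) = N.H * a * c.d * ψ N'.v := fun ψ => by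
        rw [← N'.smul_v, map_smul]; rfl
      have h3 := hcon N' φ hφ1 (by
        rw [hv] at hφ2
        have e1 : ρ ≤ δ * (N.H * a * c.d) / 4 := (min_le_right _ _).trans (by gcongr)
        have e2 : N.H * a * c.d - 2 * ρ - (N.C + N.H * c.c N.m) * c.D (c.J m z) ≤
          N.H * a * c.d * φ N'.v := hφ2
        by_contra hlt
        have := mul_lt_mul_of_pos_left (not_le.1 hlt) hp
        nlinarith) (fun ξ hξ => (hφ3 ξ hξ).trans (by linarith [min_le_left (η / 2) (δ * (N.H * ε * c.d) / 4)]))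
      have h4 := hv g
      rw [map_sub] at h4
      have h5 : g (N.P (s + a • (c.J m z, 1))) - g (N.P s) = N.H * a * c.d * g N'.v := h4
      have h6 := mul_le_mul_of_nonneg_left h3.le hp.le
      rw [hf, hf0]
      nlinarith
  let B : Set X := {k | k ∈ c.K ∧ ∀ s, c.Valid s → ∀ b, 0 ≤ b → s.2 + b ≤ 1 →
      f (s + b • (k, 1)) ≤ f s}
  have hBcv : Convex ℝ B := by
    intro x hx y hy α β hα hβ hαβ
    refine ⟨c.cv hx.1 hy.1 hα hβ hαβ, fun s hs b hb hb1 => ?_⟩
    have e : s + b • (α • x + β • y, (1 : ℝ)) = s + (b * α) • (x, 1) + (b * β) • (y, 1) := by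
      ext
      · simp only [Prod.fst_add, Prod.smul_mk]; module
      · simp only [Prod.snd_add, Prod.smul_mk, smul_eq_mul, mul_one]
        linear_combination (-b) * hαβ
    have e1 : s.2 + b * α ≤ 1 := by nlinarith [mul_nonneg hb hβ]
    rw [e]
    refine (hy.2 _ (hs.add hx.1 (mul_nonneg hb hα) e1) _ (mul_nonneg hb hβ) ?_).trans
      (hx.2 s hs _ (mul_nonneg hb hα) e1)
    simp only [Prod.snd_add, Prod.smul_mk, smul_eq_mul, mul_one]
    nlinarith
  have hBcl : IsClosed B := by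
    refine isClosed_of_closure_subset fun x hx => ?_
    have hxK : x ∈ c.K := c.cl.closure_subset (closure_mono (fun z hz => hz.1) hx)
    refine ⟨hxK, fun s hs b hb hb1 => le_of_forall_pos_le_add fun ε hε => ?_⟩
    have hp : 0 < ‖g‖ * N.H + 1 := by positivity
    obtain ⟨y, hy, hxy⟩ := Metric.mem_closure_iff.1 hx (ε / (‖g‖ * N.H + 1)) (by positivity)
    rw [dist_eq_norm, lt_div_iff₀ hp] at hxy
    have := hlip s hs x hxK y hy.1 b hb hb1
    have h2 := hy.2 s hs b hb hb1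
    nlinarith [norm_nonneg (x - y)]
  have hzB : N.z ∈ B := closure_minimal (convexHull_min (by
    rintro _ ⟨z, hz, rfl⟩
    exact ⟨c.QK z hz, hQ z hz⟩) hBcv) hBcl (c.Zhull N.zmem)
  have h1 := hzB.2 0 Node.valid_zero 1 zero_le_one (by simp)
  rw [hf, hf0, N.P_one, N.P_zero] at h1
  have h2 : g N.a - g N.b = N.H * c.d * g N.v := by
    rw [← map_sub, ← N.smul_v, map_smul]; rfl
  simp only [mul_one, Prod.snd_zero, zero_add, mul_zero, sub_zero] at h1
  nlinarith [mul_pos (mul_pos hH hd) hδ]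

end Vale.Agent.P079
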