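import Mathlib

/-! Weak limits in reflexive spaces. -/

open Filter Topology Set

namespace Vale.Agent.P079

variable {X : Type*} [NormedAddCommGroup X] [NormedSpace ℝ X]

/-- weak convergence along a filter -/
def WL {ι : Type*} (F : Filter ι) (s : ι → X) (y : X) : Prop :=
  ∀ f : StrongDual ℝ X, Tendsto (fun i => f (s i)) F (𝓝 (f y))

/-- reflexivity -/
def Refl (X : Type*) [NormedAddCommGroup X] [NormedSpace ℝ X] : Prop :=
  Function.Surjective (NormedSpace.inclusionInDoubleDual ℝ X)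

theorem exists_WL (hX : Refl X) {ι : Type*} (U : Ultrafilter ι) (s : ι → X) (M : ℝ)
    (hs : ∀ i, ‖s i‖ ≤ M) : ∃ y, WL U s y := by
  have hb : ∀ (f : StrongDual ℝ X) i, |f (s i)| ≤ M * ‖f‖ := fun f i => by
    rw [mul_comm]
    exact (f.le_opNorm _).trans (mul_le_mul_of_nonneg_left (hs i) (norm_nonneg _))
  have h1 : ∀ f : StrongDual ℝ X, ∃ a, Tendsto (fun i => f (s i)) U (𝓝 a) := fun f => by
    obtain ⟨a, -, ha⟩ := (isCompact_Icc (a := -(M * ‖f‖)) (b := M * ‖f‖)).ultrafilter_le_nhds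
      (U.map fun i => f (s i)) (by
        rw [le_principal_iff, Ultrafilter.coe_map, mem_map]
        exact Eventually.of_forall fun i => abs_le.1 (hb f i))
    exact ⟨a, ha⟩
  choose L hL using h1
  let Λ : StrongDual ℝ X →ₗ[ℝ] ℝ :=
    { toFun := L
      map_add' := fun f g => tendsto_nhds_unique (hL (f + g)) ((hL f).add (hL g))
      map_smul' := fun c f => tendsto_nhds_unique (hL (c • f)) ((hL f).const_mul c) }
  obtain ⟨y, hy⟩ := hX (Λ.mkContinuous M fun f =>
    le_of_tendsto' (hL f).abs fun i => hb f i)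
  refine ⟨y, fun f => ?_⟩
  have : f y = L f := DFunLike.congr_fun hy f
  rw [this]
  exact hL f

theorem WL.mem {ι : Type*} {F : Filter ι} [F.NeBot] {s : ι → X} {y : X} (h : WL F s y)
    {C : Set X} (hC : Convex ℝ C) (hcl : IsClosed C) (hs : ∀ᶠ i in F, s i ∈ C) : y ∈ C := by
  by_contra hy
  obtain ⟨f, u, h1, h2⟩ := geometric_hahn_banach_closed_point hC hcl hy
  exact absurd (le_of_tendsto (h f) (hs.mono fun i hi => (h1 _ hi).le)) (not_le.2 h2)

theorem WL.const {ι : Type*} (F : Filter ι) (y : X) : WL F (fun _ => y) y :=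
  fun _ => tendsto_const_nhds

theorem WL.norm_sub_le {ι : Type*} {F : Filter ι} [F.NeBot] {s t : ι → X} {y z : X}
    (h : WL F s y) (h' : WL F t z) {c : ℝ} (hc : ∀ᶠ i in F, ‖s i - t i‖ ≤ c) : ‖y - z‖ ≤ c := by
  obtain ⟨g, hg, hgy⟩ := exists_dual_vector'' ℝ (y - z)
  have h1 : Tendsto (fun i => g (s i - t i)) F (𝓝 (g (y - z))) := by
    simpa only [map_sub] using (h g).sub (h' g)
  have h2 : g (y - z) = ‖y - z‖ := by simpa using hgy
  rw [← h2]
  refine le_of_tendsto h1 (hc.mono fun i hi => ?_)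
  calc g (s i - t i) ≤ ‖g‖ * ‖s i - t i‖ := (le_abs_self _).trans (g.le_opNorm _)
    _ ≤ 1 * ‖s i - t i‖ := mul_le_mul_of_nonneg_right hg (norm_nonneg _)
    _ ≤ c := by rwa [one_mul]

theorem WL.unique {ι : Type*} {F : Filter ι} [F.NeBot] {s t : ι → X} {y z : X}
    (h : WL F s y) (h' : WL F t z) (hc : Tendsto (fun i => ‖s i - t i‖) F (𝓝 0)) : y = z := by
  rw [← sub_eq_zero, ← norm_le_zero_iff]
  refine le_of_forall_pos_le_add fun ε hε => ?_
  rw [zero_add]
  exact h.norm_sub_le h' ((hc.eventually (ge_mem_nhds hε)))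

/-- Eberlein-Smulian for reflexive spaces -/
theorem exists_subseq_WL (hX : Refl X) (s : ℕ → X) (M : ℝ) (hs : ∀ i, ‖s i‖ ≤ M) :
    ∃ (φ : ℕ → ℕ) (y : X), StrictMono φ ∧ WL atTop (fun n => s (φ n)) y := by
  set Y := (Submodule.span ℝ (range s)).topologicalClosure with hY
  have hsep : TopologicalSpace.IsSeparable (Y : Set X) :=
    ((countable_range s).isSeparable.span (R := ℝ)).closure
  obtain ⟨c, hc, hYc⟩ := hsep
  haveI := hc.to_subtype
  choose g hg hgx using fun x : X => exists_dual_vector'' ℝ x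
  have hgx' : ∀ x, g x x = ‖x‖ := fun x => by simpa using hgx x
  have hsepa : ∀ y ∈ Y, (∀ x : c, g x y = 0) → y = 0 := fun y hy h0 => by
    rw [← norm_le_zero_iff]
    refine le_of_forall_pos_le_add fun ε hε => ?_
    obtain ⟨x, hxc, hx⟩ := Metric.mem_closure_iff.1 (hYc hy) (ε / 2) (by positivity)
    rw [dist_eq_norm] at hx
    have h1 : ‖x‖ ≤ ‖y - x‖ := by
      have : g x x = g x (x - y) := by rw [map_sub, h0 ⟨x, hxc⟩, sub_zero]
      rw [← hgx', this, norm_sub_rev]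
      calc g x (x - y) ≤ ‖g x‖ * ‖x - y‖ := (le_abs_self _).trans ((g x).le_opNorm _)
        _ ≤ 1 * ‖x - y‖ := mul_le_mul_of_nonneg_right (hg x) (norm_nonneg _)
        _ = _ := one_mul _
    have h2 : ‖y‖ ≤ ‖y - x‖ + ‖x‖ := by simpa using norm_add_le (y - x) x
    linarith
  have hcomp : IsCompact (Set.pi univ fun _ : c => Icc (-M) M) :=
    isCompact_univ_pi fun _ => isCompact_Icc
  obtain ⟨a, -, φ, hφ, ha⟩ := hcomp.tendsto_subseq (x := fun n (x : c) => g x (s n))
    (fun n x _ => abs_le.1 (((g x).le_opNorm _).trans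
      ((mul_le_mul (hg x) (hs n) (norm_nonneg _) zero_le_one).trans (one_mul M).le)))
  have key : ∀ U : Ultrafilter ℕ, (U : Filter ℕ) ≤ atTop → ∃ y ∈ Y,
      WL U (fun n => s (φ n)) y ∧ ∀ x : c, g x y = a x := fun U hU => by
    obtain ⟨y, hy⟩ := exists_WL hX U (fun n => s (φ n)) M fun n => hs _
    refine ⟨y, hy.mem Y.convex (Submodule.isClosed_topologicalClosure _)
      (Eventually.of_forall fun n => Submodule.le_topologicalClosure _
        (Submodule.subset_span (mem_range_self _))), hy, fun x => ?_⟩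
    exact tendsto_nhds_unique (hy (g x)) ((tendsto_pi_nhds.1 ha x).mono_left hU)
  obtain ⟨y, hyY, -, hya⟩ := key (Ultrafilter.of atTop) (Ultrafilter.of_le _)
  refine ⟨φ, y, hφ, fun f => ?_⟩
  rw [Filter.tendsto_iff_ultrafilter]
  intro U hU
  obtain ⟨z, hzY, hz, hza⟩ := key U hU
  have : z - y = 0 := hsepa _ (Y.sub_mem hzY hyY) fun x => by rw [map_sub, hza, hya, sub_self]
  rw [← sub_eq_zero.1 this]
  exact hz f

/-- minimal invariant closed convex sets -/
theorem exists_minimal (hX : Refl X) (Q : X → X) {C : Set X} (hne : C.Nonempty) (hcl : IsClosed C)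
    (hcv : Convex ℝ C) {M : ℝ} (hM : ∀ x ∈ C, ‖x‖ ≤ M) (hQ : MapsTo Q C C) :
    ∃ K ⊆ C, K.Nonempty ∧ IsClosed K ∧ Convex ℝ K ∧ MapsTo Q K K ∧
      ∀ D ⊆ K, D.Nonempty → IsClosed D → Convex ℝ D → MapsTo Q D D → D = K := by
  let S : Set (Set X) := {K | K ⊆ C ∧ K.Nonempty ∧ IsClosed K ∧ Convex ℝ K ∧ MapsTo Q K K}
  obtain ⟨K, -, hK⟩ := zorn_superset_nonempty S (fun c hcS hc hcne => by
    refine ⟨⋂₀ c, ⟨?_, ?_, isClosed_sInter fun t ht => (hcS ht).2.2.1,
      convex_sInter fun t ht => (hcS ht).2.2.2.1, fun x hx t ht => (hcS ht).2.2.2.2 (hx t ht)⟩,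
      fun t ht => sInter_subset_of_mem ht⟩
    · obtain ⟨t, ht⟩ := hcne
      exact (sInter_subset_of_mem ht).trans (hcS ht).1
    · haveI : Nonempty c := hcne.to_subtype
      choose p hp using fun t : c => (hcS t.2).2.1
      have hdir : Directed (· ≥ ·) fun t : c => (𝓟 {u : c | u.1 ⊆ t.1} : Filter c) := by
        intro t u
        rcases hc.total t.2 u.2 with h | h
        · exact ⟨t, le_rfl, principal_mono.2 fun v hv => Subset.trans hv h⟩
        · exact ⟨u, principal_mono.2 fun v hv => Subset.trans hv h, le_rfl⟩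
      haveI : (⨅ t : c, (𝓟 {u : c | u.1 ⊆ t.1} : Filter c)).NeBot :=
        iInf_neBot_of_directed hdir fun t => principal_neBot_iff.2 ⟨t, Subset.rfl⟩
      let U := Ultrafilter.of (⨅ t : c, (𝓟 {u : c | u.1 ⊆ t.1} : Filter c))
      obtain ⟨y, hy⟩ := exists_WL hX U p M fun t => hM _ ((hcS t.2).1 (hp t))
      refine ⟨y, fun t ht => hy.mem (hcS ht).2.2.2.1 (hcS ht).2.2.1 ?_⟩
      have : (U : Filter c) ≤ 𝓟 {u : c | u.1 ⊆ t} :=
        (Ultrafilter.of_le _).trans (iInf_le _ (⟨t, ht⟩ : c))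
      have h2 : ∀ᶠ u in (U : Filter c), u.1 ⊆ t := le_principal_iff.1 this
      exact h2.mono fun u hu => hu (hp u)) C ⟨Subset.rfl, hne, hcl, hcv, hQ⟩
  obtain ⟨h1, h2, h3, h4, h5⟩ := hK.prop
  exact ⟨K, h1, h2, h3, h4, h5, fun D hD a b c d =>
    Subset.antisymm hD (hK.le_of_le ⟨hD.trans h1, a, b, c, d⟩ hD)⟩

theorem closure_hull_eq {Q : X → X} {K : Set X} (hne : K.Nonempty) (hcl : IsClosed K)
    (hcv : Convex ℝ K) (hQ : MapsTo Q K K)
    (hmin : ∀ D ⊆ K, D.Nonempty → IsClosed D → Convex ℝ D → MapsTo Q D D → D = K) :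
    closure (convexHull ℝ (Q '' K)) = K := by
  have hsub : closure (convexHull ℝ (Q '' K)) ⊆ K :=
    closure_minimal (convexHull_min hQ.image_subset hcv) hcl
  exact hmin _ hsub ((hne.image Q).mono ((subset_convexHull ℝ _).trans subset_closure))
    isClosed_closure (convex_convexHull ℝ _).closure
    fun x hx => subset_closure (subset_convexHull ℝ _ (mem_image_of_mem Q (hsub hx)))

end Vale.Agent.P079
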